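import Vale.Agent.Lib.P061.Main

/-- Strong thin trees for bounded tree-depth: a `k`-edge-connected loopless multigraph `m` on a
finite vertex type, with an elimination forest of height at most `h` (that is, tree-depth at most
`h`), has a spanning tree `T` made of edges of `m` such that, for every vertex set `S`,
`k * |δ_T(S)| ≤ thinC h * |δ_m(S)|`. So the tree is `(thinC h / k)`-thin, where the constant
`thinC h` depends only on `h`. -/
theorem Vale.Agent.Results.P061.A_TreeDepth.result {V : Type*} [Fintype V] [Nonempty V]
    [PartialOrder V] (m : V → V → ℕ) (hsym : ∀ u v, m u v = m v u) (hdiag : ∀ v, m v v = 0)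
    {k h : ℕ} (hk : 0 < k) (hkc : P061.KConn m k) (hE : P061.ElimForest m h) :
    ∃ T : SimpleGraph V, T.IsTree ∧ (∀ u v, T.Adj u v → 0 < m u v) ∧
      ∀ S : Finset V, k * P061.crossT T S ≤ P061.thinC h * P061.cutM m S :=
  P061.thin_tree m hsym hdiag hk hkc hE
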